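import Mathlib.Data.Finset.Image
import Mathlib.Data.Int.Basic
import Mathlib.Algebra.Order.Ring.Int

/-!
# The Snaky achievement game on the infinite board

`IsCopy C` says that the finite set of cells `C` is an allowed copy of the hexomino Snaky, and
`MakerWins M B` says that Maker, to move in the position where Maker owns `M` and Breaker
owns `B`, can force a win after finitely many turns.
-/

namespace Vale.Agent.P062h5

/-- A cell of the square grid, indexed by its lower left corner. -/
abbrev Cell := ℤ × ℤ

/-- The hexomino Snaky. -/
def snaky : Finset Cell := {(0, 0), (1, 0), (2, 0), (3, 0), (3, 1), (4, 1)}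

/-- The action on cells of the signed permutation matrix with signs `sx, sy`, which exchanges the
two coordinates exactly when `swap` is true. -/
def signedPerm (swap : Bool) (sx sy : ℤ) (p : Cell) : Cell :=
  if swap then (sx * p.2, sy * p.1) else (sx * p.1, sy * p.2)

/-- `C` is an allowed copy of Snaky: `C = t + R(S)` with `t` a translation and `R` one of the eight
signed permutation matrices. -/
def IsCopy (C : Finset Cell) : Prop :=
  ∃ (t : Cell) (swap : Bool) (sx sy : ℤ), (sx = 1 ∨ sx = -1) ∧ (sy = 1 ∨ sy = -1) ∧
    C = snaky.image (fun p => t + signedPerm swap sx sy p)

/-- `MakerWins M B`: in the position where Maker owns `M` and Breaker owns `B`, with Maker to move,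
Maker has a strategy that wins after finitely many turns against every legal play of Breaker.
Either Maker already owns an allowed copy, or Maker has a legal move `m` such that after every
legal reply `b` of Breaker the resulting position is again won for Maker. -/
inductive MakerWins : Finset Cell → Finset Cell → Prop
  | won {M B C : Finset Cell} (hC : IsCopy C) (hCM : C ⊆ M) : MakerWins M B
  | move {M B : Finset Cell} (m : Cell) (hmM : m ∉ M) (hmB : m ∉ B)
      (h : ∀ b : Cell, b ∉ insert m M → b ∉ B → MakerWins (insert m M) (insert b B)) :
      MakerWins M B

end Vale.Agent.P062h5
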