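import Vale.Agent.P062h5.Defs
import Mathlib.Tactic.Linarith
import Mathlib.Tactic.IntervalCases
import Mathlib.Tactic.Ring
import Mathlib.Data.Fintype.EquivFin

/-!
A small stack machine that checks position free proofs of Maker wins, written so that the
kernel can run it quickly, together with its soundness proof.
-/

namespace Vale.Agent.P062h5

/-- Width of the coded board. -/
def W : ℕ := 32

/-- The cell with code `i`; the code `16 + 32 * 16` is the origin. -/
def cellOf (i : ℕ) : Cell := (((i % W : ℕ) : ℤ) - 16, ((i / W : ℕ) : ℤ) - 16)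

theorem cellOf_inj {i j : ℕ} (h : cellOf i = cellOf j) : i = j := by
  unfold cellOf at h
  have h1 : i % W = j % W := by
    have := congrArg Prod.fst h
    simp only [sub_left_inj] at this
    exact_mod_cast this
  have h2 : i / W = j / W := by
    have := congrArg Prod.snd h
    simp only [sub_left_inj] at this
    exact_mod_cast this
  rw [← Nat.div_add_mod i W, ← Nat.div_add_mod j W, h1, h2]

/-- The set of cells coded by a bit mask. -/
def sem (z : ℕ) : Set Cell := {c | ∃ i, z.testBit i = true ∧ c = cellOf i}

theorem mem_sem_cellOf {z i : ℕ} : cellOf i ∈ sem z ↔ z.testBit i = true := by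
  constructor
  · rintro ⟨j, hj, h⟩
    rw [cellOf_inj h]; exact hj
  · intro h
    exact ⟨i, h, rfl⟩

/-- `Good M Z`: Maker wins from every position where Maker owns at least `M` and Breaker owns no
cell of `Z`. -/
def Good (M Z : ℕ) : Prop :=
  ∀ A B : Finset Cell, sem M ⊆ ↑A → (∀ c ∈ B, c ∉ sem Z) → MakerWins A B

/-- `PP M Z R`: as `Good`, with one more Breaker stone `b` anywhere outside `R`. -/
def PP (M Z R : ℕ) : Prop :=
  ∀ A B : Finset Cell, sem M ⊆ ↑A → (∀ c ∈ B, c ∉ sem Z) →
    ∀ b : Cell, b ∉ sem R → b ∉ A → b ∉ B → MakerWins A (insert b B)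

theorem sem_or (a b : ℕ) : sem (a ||| b) = sem a ∪ sem b := by
  ext c
  constructor
  · rintro ⟨i, hi, rfl⟩
    rw [Nat.testBit_or, Bool.or_eq_true] at hi
    rcases hi with hi | hi
    · exact Or.inl ⟨i, hi, rfl⟩
    · exact Or.inr ⟨i, hi, rfl⟩
  · rintro (⟨i, hi, rfl⟩ | ⟨i, hi, rfl⟩)
    · exact ⟨i, by rw [Nat.testBit_or, hi, Bool.true_or], rfl⟩
    · exact ⟨i, by rw [Nat.testBit_or, hi, Bool.or_true], rfl⟩

theorem sem_and (a b : ℕ) : sem (a &&& b) = sem a ∩ sem b := by
  ext c
  constructor
  · rintro ⟨i, hi, rfl⟩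
    rw [Nat.testBit_and, Bool.and_eq_true] at hi
    exact ⟨⟨i, hi.1, rfl⟩, ⟨i, hi.2, rfl⟩⟩
  · rintro ⟨⟨i, hi, rfl⟩, ⟨j, hj, h⟩⟩
    have := cellOf_inj h
    subst this
    exact ⟨i, by rw [Nat.testBit_and, hi, hj, Bool.and_true], rfl⟩

theorem sem_zero : sem 0 = ∅ := by
  ext c
  constructor
  · rintro ⟨i, hi, rfl⟩
    simp at hi
  · intro h; exact absurd h (Set.notMem_empty c)

theorem sem_two_pow (m : ℕ) : sem (2 ^ m) = {cellOf m} := by
  ext c
  constructor
  · rintro ⟨i, hi, rfl⟩
    rw [Nat.testBit_two_pow] at hi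
    have : m = i := by simpa using hi
    rw [this]; rfl
  · intro h
    have h' : c = cellOf m := h
    exact ⟨m, by simp, h'⟩

theorem sem_clear (M m : ℕ) : sem (M ^^^ (M &&& 2 ^ m)) = sem M \ {cellOf m} := by
  ext c
  constructor
  · rintro ⟨i, hi, rfl⟩
    rw [Nat.testBit_xor, Nat.testBit_and, Nat.testBit_two_pow] at hi
    by_cases hM : M.testBit i = true
    · by_cases hm : m = i
      · subst hm; simp [hM] at hi
      · refine ⟨⟨i, hM, rfl⟩, ?_⟩
        intro h
        exact hm (cellOf_inj (h : cellOf i = cellOf m)).symm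
    · simp [hM] at hi
  · rintro ⟨⟨i, hi, rfl⟩, hne⟩
    refine ⟨i, ?_, rfl⟩
    rw [Nat.testBit_xor, Nat.testBit_and, Nat.testBit_two_pow, hi]
    have : m ≠ i := by
      intro h; subst h; exact hne rfl
    simp [this]

theorem Good.toPP {M Z : ℕ} (h : Good M Z) : PP M Z Z := by
  intro A B hA hB b hb _ _
  refine h A (insert b B) hA ?_
  intro c hc
  rcases Finset.mem_insert.mp hc with rfl | hc
  · exact hb
  · exact hB c hc

theorem PP.merge {M1 Z1 R1 M2 Z2 R2 : ℕ} (h1 : PP M1 Z1 R1) (h2 : PP M2 Z2 R2) :
    PP (M1 ||| M2) (Z1 ||| Z2) (R1 &&& R2) := by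
  intro A B hA hB b hb hbA hbB
  rw [sem_or] at hA
  by_cases hb1 : b ∈ sem R1
  · have hb2 : b ∉ sem R2 := by
      intro hb2
      apply hb
      rw [sem_and]
      exact ⟨hb1, hb2⟩
    refine h2 A B (fun x hx => hA (Or.inr hx)) ?_ b hb2 hbA hbB
    intro c hc hc2
    apply hB c hc
    rw [sem_or]
    exact Or.inr hc2
  · refine h1 A B (fun x hx => hA (Or.inl hx)) ?_ b hb1 hbA hbB
    intro c hc hc2
    apply hB c hc
    rw [sem_or]
    exact Or.inl hc2

/-- A fresh cell. -/
theorem exists_fresh (A B : Finset Cell) : ∃ x : Cell, x ∉ A ∧ x ∉ B := by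
  obtain ⟨x, hx⟩ := Infinite.exists_notMem_finset (A ∪ B)
  rw [Finset.mem_union, not_or] at hx
  exact ⟨x, hx.1, hx.2⟩

theorem PP.close {M Z R : ℕ} (m : ℕ) (h : PP M Z R) (hR : (R &&& (M ||| 2 ^ m)) = R) :
    Good (M ^^^ (M &&& 2 ^ m)) (Z ||| 2 ^ m) := by
  intro A B hA hB
  have hmB : cellOf m ∉ B := by
    intro hm
    apply hB _ hm
    rw [sem_or, sem_two_pow]
    exact Or.inr rfl
  have hZ : ∀ c ∈ B, c ∉ sem Z := by
    intro c hc hc2
    apply hB c hc
    rw [sem_or]
    exact Or.inl hc2
  rw [sem_clear] at hA
  have key : ∀ x : Cell, x ∉ A → x ∉ B → (cellOf m ∈ insert x A) → MakerWins A B := by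
    intro x hxA hxB hmem
    refine MakerWins.move x hxA hxB ?_
    intro b hb1 hb2
    have hsub : sem M ⊆ ↑(insert x A) := by
      intro y hy
      by_cases hym : y = cellOf m
      · subst hym; exact_mod_cast hmem
      · have : y ∈ (A : Set Cell) := hA ⟨hy, hym⟩
        simp only [Finset.coe_insert]
        exact Or.inr this
    refine h (insert x A) B hsub hZ b ?_ hb1 hb2
    intro hbR
    rw [← hR, sem_and, sem_or, sem_two_pow] at hbR
    rcases hbR.2 with hb3 | hb3
    · exact hb1 (by exact_mod_cast hsub hb3)
    · have : b = cellOf m := hb3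
      subst this
      exact hb1 hmem
  by_cases hmA : cellOf m ∈ A
  · obtain ⟨x, hx1, hx2⟩ := exists_fresh A B
    exact key x hx1 hx2 (Finset.mem_insert_of_mem hmA)
  · exact key (cellOf m) hmA hmB (Finset.mem_insert_self _ _)

/-- Strict application: evaluates the `ℕ` argument before continuing. -/
def st {α : Type} (n : ℕ) (g : ℕ → α) : α :=
  Nat.rec (motive := fun _ => α) (g 0) (fun m _ => g (Nat.succ m)) n

theorem st_eq {α : Type} (n : ℕ) (g : ℕ → α) : st n g = g n := by
  cases n <;> rfl

/-- The masks of the eight orientations at position `0`, packed with `256` bits each. -/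
def pkTable : ℕ :=
  189942290405802668543212988582246158377314524901035318512562545162954812849861273672627932031239051660064436926393676430473865258502792809484816624120543413761464941528751552257886508369913026796545881694427283749097697636908268110343893832020549465399654214663651840754282512645214775745118632987482706667219274707417991821602208830295557074182463516722110496882441298660389936364075104511313124989913225358063774449241987760270838713984408709505465618920075559486226209689941234824789530904264247565916388873302014144703111453489134690735525733757109602527912715190952232222735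

/-- The mask of orientation `o` at position `0`.  -/
def pk (o : ℕ) : ℕ := Nat.land (Nat.shiftRight pkTable (Nat.mul 256 o)) 115792089237316195423570985008687907853269984665640564039457584007913129639935

theorem mem_shift {p k dx dy : ℕ} (hx : k % W + dx < W) (hb : p.testBit (dx + W * dy) = true) :
    ((((k % W : ℕ) : ℤ) - 16 + (dx : ℤ), ((k / W : ℕ) : ℤ) - 16 + (dy : ℤ)) : Cell) ∈ sem (p <<< k) := by
  refine ⟨dx + W * dy + k, ?_, ?_⟩
  · rw [Nat.testBit_shiftLeft]
    simp [hb]
  · have hk : dx + W * dy + k = (k % W + dx) + W * (k / W + dy) := by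
      have := Nat.div_add_mod k W
      nlinarith
    have h1 : (dx + W * dy + k) % W = k % W + dx := by
      rw [hk, Nat.add_mul_mod_self_left, Nat.mod_eq_of_lt hx]
    have h2 : (dx + W * dy + k) / W = k / W + dy := by
      rw [hk, Nat.add_mul_div_left _ _ (by decide : 0 < W), Nat.div_eq_of_lt hx, Nat.zero_add]
    unfold cellOf
    rw [h1, h2]
    push_cast
    ext <;> simp <;> ring

theorem exists_copy (o k : ℕ) (ho : o < 8) (h : k % W + 5 ≤ W) :
    ∃ C : Finset Cell, IsCopy C ∧ ∀ c ∈ C, c ∈ sem (pk o <<< k) := by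
  have key : ∀ dx dy : ℕ, dx < 5 → (pk o).testBit (dx + W * dy) = true →
      ((((k % W : ℕ) : ℤ) - 16 + (dx : ℤ), ((k / W : ℕ) : ℤ) - 16 + (dy : ℤ)) : Cell) ∈
        sem (pk o <<< k) := by
    intro dx dy h1 h2
    exact mem_shift (by omega) h2
  generalize ((k % W : ℕ) : ℤ) - 16 = tx at key
  generalize ((k / W : ℕ) : ℤ) - 16 = ty at key
  interval_cases o
  · refine ⟨_, ⟨(tx, ty), false, 1, 1, Or.inl rfl, Or.inl rfl, rfl⟩, ?_⟩
    intro c hc
    simp [snaky, signedPerm] at hc
    rcases hc with rfl | rfl | rfl | rfl | rfl | rfl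
    · simpa using key 0 0 (by decide) (by decide +kernel)
    · simpa using key 1 0 (by decide) (by decide +kernel)
    · simpa using key 2 0 (by decide) (by decide +kernel)
    · simpa using key 3 0 (by decide) (by decide +kernel)
    · simpa using key 3 1 (by decide) (by decide +kernel)
    · simpa using key 4 1 (by decide) (by decide +kernel)
  · refine ⟨_, ⟨(tx + 4, ty), false, -1, 1, Or.inr rfl, Or.inl rfl, rfl⟩, ?_⟩
    intro c hc
    simp [snaky, signedPerm] at hc
    rcases hc with rfl | rfl | rfl | rfl | rfl | rfl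
    · simpa using key 4 0 (by decide) (by decide +kernel)
    · simpa [add_assoc] using key 3 0 (by decide) (by decide +kernel)
    · simpa [add_assoc] using key 2 0 (by decide) (by decide +kernel)
    · simpa [add_assoc] using key 1 0 (by decide) (by decide +kernel)
    · simpa [add_assoc] using key 1 1 (by decide) (by decide +kernel)
    · simpa [add_assoc] using key 0 1 (by decide) (by decide +kernel)
  · refine ⟨_, ⟨(tx, ty + 1), false, 1, -1, Or.inl rfl, Or.inr rfl, rfl⟩, ?_⟩
    intro c hc
    simp [snaky, signedPerm] at hc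
    rcases hc with rfl | rfl | rfl | rfl | rfl | rfl
    · simpa using key 0 1 (by decide) (by decide +kernel)
    · simpa using key 1 1 (by decide) (by decide +kernel)
    · simpa using key 2 1 (by decide) (by decide +kernel)
    · simpa using key 3 1 (by decide) (by decide +kernel)
    · simpa using key 3 0 (by decide) (by decide +kernel)
    · simpa using key 4 0 (by decide) (by decide +kernel)
  · refine ⟨_, ⟨(tx + 4, ty + 1), false, -1, -1, Or.inr rfl, Or.inr rfl, rfl⟩, ?_⟩
    intro c hc
    simp [snaky, signedPerm] at hc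
    rcases hc with rfl | rfl | rfl | rfl | rfl | rfl
    · simpa using key 4 1 (by decide) (by decide +kernel)
    · simpa [add_assoc] using key 3 1 (by decide) (by decide +kernel)
    · simpa [add_assoc] using key 2 1 (by decide) (by decide +kernel)
    · simpa [add_assoc] using key 1 1 (by decide) (by decide +kernel)
    · simpa [add_assoc] using key 1 0 (by decide) (by decide +kernel)
    · simpa [add_assoc] using key 0 0 (by decide) (by decide +kernel)
  · refine ⟨_, ⟨(tx, ty), true, 1, 1, Or.inl rfl, Or.inl rfl, rfl⟩, ?_⟩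
    intro c hc
    simp [snaky, signedPerm] at hc
    rcases hc with rfl | rfl | rfl | rfl | rfl | rfl
    · simpa using key 0 0 (by decide) (by decide +kernel)
    · simpa using key 0 1 (by decide) (by decide +kernel)
    · simpa using key 0 2 (by decide) (by decide +kernel)
    · simpa using key 0 3 (by decide) (by decide +kernel)
    · simpa using key 1 3 (by decide) (by decide +kernel)
    · simpa using key 1 4 (by decide) (by decide +kernel)
  · refine ⟨_, ⟨(tx + 1, ty), true, -1, 1, Or.inr rfl, Or.inl rfl, rfl⟩, ?_⟩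
    intro c hc
    simp [snaky, signedPerm] at hc
    rcases hc with rfl | rfl | rfl | rfl | rfl | rfl
    · simpa using key 1 0 (by decide) (by decide +kernel)
    · simpa using key 1 1 (by decide) (by decide +kernel)
    · simpa using key 1 2 (by decide) (by decide +kernel)
    · simpa using key 1 3 (by decide) (by decide +kernel)
    · simpa [add_assoc] using key 0 3 (by decide) (by decide +kernel)
    · simpa [add_assoc] using key 0 4 (by decide) (by decide +kernel)
  · refine ⟨_, ⟨(tx, ty + 4), true, 1, -1, Or.inl rfl, Or.inr rfl, rfl⟩, ?_⟩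
    intro c hc
    simp [snaky, signedPerm] at hc
    rcases hc with rfl | rfl | rfl | rfl | rfl | rfl
    · simpa using key 0 4 (by decide) (by decide +kernel)
    · simpa [add_assoc] using key 0 3 (by decide) (by decide +kernel)
    · simpa [add_assoc] using key 0 2 (by decide) (by decide +kernel)
    · simpa [add_assoc] using key 0 1 (by decide) (by decide +kernel)
    · simpa [add_assoc] using key 1 1 (by decide) (by decide +kernel)
    · simpa [add_assoc] using key 1 0 (by decide) (by decide +kernel)
  · refine ⟨_, ⟨(tx + 1, ty + 4), true, -1, -1, Or.inr rfl, Or.inr rfl, rfl⟩, ?_⟩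
    intro c hc
    simp [snaky, signedPerm] at hc
    rcases hc with rfl | rfl | rfl | rfl | rfl | rfl
    · simpa using key 1 4 (by decide) (by decide +kernel)
    · simpa [add_assoc] using key 1 3 (by decide) (by decide +kernel)
    · simpa [add_assoc] using key 1 2 (by decide) (by decide +kernel)
    · simpa [add_assoc] using key 1 1 (by decide) (by decide +kernel)
    · simpa [add_assoc] using key 0 1 (by decide) (by decide +kernel)
    · simpa [add_assoc] using key 0 0 (by decide) (by decide +kernel)

theorem good_won (o k : ℕ) (ho : o < 8) (h : k % W + 5 ≤ W) : PP (pk o <<< k) 0 0 := by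
  obtain ⟨C, hC, hCs⟩ := exists_copy o k ho h
  intro A B hA _ b _ _ _
  refine MakerWins.won hC ?_
  intro c hc
  exact_mod_cast hA (hCs c hc)

/-- The machine stack; each entry holds three masks `M Z R`. -/
inductive Stk
  | nil
  | cons (M Z R : ℕ) (tl : Stk)

/-- Every entry of the stack is a valid `PP` fact. -/
def Stk.Inv : Stk → Prop
  | .nil => True
  | .cons M Z R tl => PP M Z R ∧ tl.Inv

/-- Strict application for stacks. -/
noncomputable def fS {α : Type} (s : Stk) (g : Stk → α) : α :=
  Stk.rec (motive := fun _ => α) (g .nil) (fun M Z R tl _ => g (.cons M Z R tl)) s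

theorem fS_eq {α : Type} (s : Stk) (g : Stk → α) : fS s g = g s := by
  cases s <;> rfl

/-- The merge instruction. -/
noncomputable def opMerge (s : Stk) : Stk :=
  Stk.rec (motive := fun _ => Stk) .nil (fun M1 Z1 R1 tl1 _ =>
    Stk.rec (motive := fun _ => Stk) .nil (fun M2 Z2 R2 tl _ =>
      .cons (Nat.lor M1 M2) (Nat.lor Z1 Z2) (Nat.land R1 R2) tl) tl1) s

/-- The close instruction for the entry `M Z R`, with `bit` the bit of the cell played. -/
noncomputable def opClose2 (bit M Z R : ℕ) (tl : Stk) : Stk :=
  Bool.rec (motive := fun _ => Stk) .nil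
    (.cons (Nat.xor M (Nat.land M bit)) (Nat.lor Z bit) (Nat.lor Z bit) tl)
    (Nat.beq (Nat.land R (Nat.lor M bit)) R)

/-- The close instruction: Maker plays the cell with code `m`. -/
noncomputable def opClose (m : ℕ) (s : Stk) : Stk :=
  Stk.rec (motive := fun _ => Stk) .nil
    (fun M Z R tl _ => opClose2 (Nat.pow 2 m) M Z R tl) s

/-- The instruction pushing the copy of orientation `o` at position `k`. -/
noncomputable def opWon (o k : ℕ) (s : Stk) : Stk :=
  Bool.rec (motive := fun _ => Stk) .nil
    (.cons (Nat.shiftLeft (pk o) k) 0 0 s)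
    (Nat.ble (Nat.add (Nat.mod k 32) 5) 32)

/-- The instruction pushing entry `i` of the table `T`. -/
noncomputable def opLoad (T : Stk) (i : ℕ) (s : Stk) : Stk :=
  Nat.rec (motive := fun _ => Stk → Stk)
    (fun T' => Stk.rec (motive := fun _ => Stk) .nil (fun M Z R _ _ => .cons M Z R s) T')
    (fun _ ih T' => Stk.rec (motive := fun _ => Stk) .nil (fun _ _ _ tl _ => ih tl) T') i T

/-- Dispatch on the instruction kind. -/
noncomputable def disp (T : Stk) (kind a : ℕ) (s : Stk) : Stk :=
  Bool.rec (motive := fun _ => Stk)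
    (Bool.rec (motive := fun _ => Stk)
      (Bool.rec (motive := fun _ => Stk)
        (Bool.rec (motive := fun _ => Stk) s (opLoad T a s) (Nat.beq kind 4))
        (opMerge s) (Nat.beq kind 1))
      (opClose a s) (Nat.beq kind 2))
    (opWon (Nat.land a 7) (Nat.shiftRight a 3) s) (Nat.beq kind 3)

/-- One machine instruction, coded by `t`. -/
noncomputable def step (T : Stk) (t : ℕ) (s : Stk) : Stk :=
  disp T (Nat.land t 7) (Nat.shiftRight t 3) s

theorem opMerge_inv {s : Stk} (h : s.Inv) : (opMerge s).Inv := by
  match s, h with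
  | .nil, _ => trivial
  | .cons _ _ _ .nil, _ => trivial
  | .cons M1 Z1 R1 (.cons M2 Z2 R2 tl), h =>
    exact ⟨PP.merge h.1 h.2.1, h.2.2⟩

theorem opClose_inv (m : ℕ) {s : Stk} (h : s.Inv) : (opClose m s).Inv := by
  match s, h with
  | .nil, _ => trivial
  | .cons M Z R tl, h =>
    show (opClose2 (Nat.pow 2 m) M Z R tl).Inv
    unfold opClose2
    cases hc : Nat.beq (Nat.land R (Nat.lor M (Nat.pow 2 m))) R with
    | false => trivial
    | true =>
      have hR : (R &&& (M ||| 2 ^ m)) = R := Nat.eq_of_beq_eq_true hc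
      exact ⟨(PP.close m h.1 hR).toPP, h.2⟩

theorem opWon_inv (o k : ℕ) (ho : o < 8) {s : Stk} (h : s.Inv) : (opWon o k s).Inv := by
  unfold opWon
  cases hc : Nat.ble (Nat.add (Nat.mod k 32) 5) 32 with
  | false => trivial
  | true =>
    exact ⟨good_won o k ho (Nat.le_of_ble_eq_true hc), h⟩

theorem opLoad_inv (T : Stk) (i : ℕ) {s : Stk} (hT : T.Inv) (h : s.Inv) : (opLoad T i s).Inv := by
  unfold opLoad
  induction i generalizing T with
  | zero =>
    cases T with
    | nil => trivial
    | cons M Z R tl => exact ⟨hT.1, h⟩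
  | succ n ih =>
    cases T with
    | nil => trivial
    | cons M Z R tl => exact ih tl hT.2

theorem step_inv (T : Stk) (t : ℕ) {s : Stk} (hT : T.Inv) (h : s.Inv) : (step T t s).Inv := by
  unfold step disp
  cases Nat.beq (Nat.land t 7) 3
  · cases Nat.beq (Nat.land t 7) 2
    · cases Nat.beq (Nat.land t 7) 1
      · cases Nat.beq (Nat.land t 7) 4
        · exact h
        · exact opLoad_inv T _ hT h
      · exact opMerge_inv h
    · exact opClose_inv _ h
  · refine opWon_inv _ _ ?_ h
    have : Nat.land (Nat.shiftRight t 3) 7 ≤ 7 := Nat.and_le_right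
    omega

/-- Balanced iteration: applies `f i, f (i+1), ..., f (i + 2^j - 1)` in order. -/
noncomputable def walk (f : ℕ → Stk → Stk) (j : ℕ) : ℕ → Stk → Stk :=
  Nat.rec (motive := fun _ => ℕ → Stk → Stk)
    (fun i s => f i s)
    (fun j' ih i s => fS (ih i s) fun s' => ih (Nat.add i (Nat.pow 2 j')) s') j

theorem walk_inv (f : ℕ → Stk → Stk) (hf : ∀ i s, s.Inv → (f i s).Inv) (j : ℕ) :
    ∀ i s, s.Inv → (walk f j i s).Inv := by
  induction j with
  | zero => exact fun i s h => hf i s h
  | succ j' ih =>
    intro i s h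
    show (fS (walk f j' i s) fun s' => walk f j' (Nat.add i (Nat.pow 2 j')) s').Inv
    rw [fS_eq]
    exact ih _ _ (ih _ _ h)

/-- Token `i` of a chunk (16 bits per token). -/
def token (ch i : ℕ) : ℕ := Nat.land (Nat.shiftRight ch (Nat.mul 16 i)) 65535

/-- Runs the `64` tokens of chunk `ch`. -/
noncomputable def runChunk (T : Stk) (ch : ℕ) (s : Stk) : Stk :=
  walk (fun i s' => step T (token ch i) s') 6 0 s

/-- Chunk `c` of the data literal `D` (`1024` bits per chunk). -/
def chunk (D c : ℕ) : ℕ :=
  Nat.land (Nat.shiftRight D (Nat.mul 1024 c)) 179769313486231590772930519078902473361797697894230657273430081157732675805500963132708477322407536021120113879871393357658789768814416622492847430639474124377767893424865485276302219601246094119453082952085005768838150682342462881473913110540827237163350510684586298239947245938479716304835356329624224137215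

/-- Runs `2^j` chunks of `D`. -/
noncomputable def run (T : Stk) (D j : ℕ) (s : Stk) : Stk :=
  walk (fun c s' => runChunk T (chunk D c) s') j 0 s

theorem run_inv (T : Stk) (D j : ℕ) {s : Stk} (hT : T.Inv) (h : s.Inv) : (run T D j s).Inv := by
  refine walk_inv _ ?_ j 0 s h
  intro c s' hs'
  exact walk_inv _ (fun i s'' h'' => step_inv T _ hT h'') 6 0 s' hs'

/-- The stack has the entry `M Z R` on top. -/
noncomputable def topIs (M Z R : ℕ) (s : Stk) : Bool :=
  Stk.rec (motive := fun _ => Bool) false
    (fun M' Z' R' _ _ =>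
      Bool.rec (motive := fun _ => Bool) false
        (Bool.rec (motive := fun _ => Bool) false (Nat.beq R' R) (Nat.beq Z' Z))
        (Nat.beq M' M)) s

theorem pp_of_topIs {M Z R : ℕ} {s : Stk} (h : s.Inv) (ht : topIs M Z R s = true) : PP M Z R := by
  cases s with
  | nil => exact absurd ht (by simp [topIs])
  | cons M' Z' R' tl =>
    have ht' : topIs M Z R (.cons M' Z' R' tl) = Bool.rec (motive := fun _ => Bool) false
        (Bool.rec (motive := fun _ => Bool) false (Nat.beq R' R) (Nat.beq Z' Z))
        (Nat.beq M' M) := rfl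
    rw [ht'] at ht
    cases h1 : Nat.beq M' M with
    | false => rw [h1] at ht; exact absurd ht (by simp)
    | true =>
      rw [h1] at ht
      cases h2 : Nat.beq Z' Z with
      | false => rw [h2] at ht; exact absurd ht (by simp)
      | true =>
        rw [h2] at ht
        have e1 := Nat.eq_of_beq_eq_true h1
        have e2 := Nat.eq_of_beq_eq_true h2
        have e3 := Nat.eq_of_beq_eq_true ht
        subst e1 e2 e3
        exact h.1

/-- Soundness of a run: the data `D` proves the `PP` fact on top of the final stack. -/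
theorem run_sound {T : Stk} (hT : T.Inv) (D j : ℕ) {M Z R : ℕ}
    (h : topIs M Z R (run T D j .nil) = true) : PP M Z R :=
  pp_of_topIs (run_inv T D j hT (s := .nil) trivial) h

end Vale.Agent.P062h5
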