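import Vale.Agent.P062h5.Machine

/-!
Symmetries of the game, and how `PP` facts give answers to Breaker's first reply.
-/

namespace Vale.Agent.P062h5

/-- Exchange of the coordinates. -/
def tauE : Cell ≃ Cell where
  toFun p := (p.2, p.1)
  invFun p := (p.2, p.1)
  left_inv _ := rfl
  right_inv _ := rfl

/-- Reflection in the second coordinate axis. -/
def rhoE : Cell ≃ Cell where
  toFun p := (-p.1, p.2)
  invFun p := (-p.1, p.2)
  left_inv p := by simp
  right_inv p := by simp

theorem isCopy_tau {C : Finset Cell} (h : IsCopy C) : IsCopy (C.image tauE) := by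
  obtain ⟨t, sw, sx, sy, hx, hy, rfl⟩ := h
  refine ⟨(t.2, t.1), !sw, sy, sx, hy, hx, ?_⟩
  rw [Finset.image_image]
  apply Finset.image_congr
  intro p _
  cases sw <;> simp [signedPerm, tauE]

theorem isCopy_rho {C : Finset Cell} (h : IsCopy C) : IsCopy (C.image rhoE) := by
  obtain ⟨t, sw, sx, sy, hx, hy, rfl⟩ := h
  refine ⟨(-t.1, t.2), sw, -sx, sy, ?_, hy, ?_⟩
  · rcases hx with rfl | rfl
    · exact Or.inr rfl
    · exact Or.inl (by norm_num)
  · rw [Finset.image_image]
    apply Finset.image_congr
    intro p _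
    cases sw <;> simp [signedPerm, rhoE, Prod.ext_iff] <;> ring

theorem MakerWins.map (σ : Cell ≃ Cell) (hσ : ∀ C, IsCopy C → IsCopy (C.image σ))
    {M B : Finset Cell} (h : MakerWins M B) : MakerWins (M.image σ) (B.image σ) := by
  induction h with
  | won hC hCM => exact MakerWins.won (hσ _ hC) (Finset.image_subset_image hCM)
  | @move M B m hmM hmB _ ih =>
    refine MakerWins.move (σ m) ?_ ?_ ?_
    · simpa using hmM
    · simpa using hmB
    · intro b hb1 hb2
      have e1 : insert (σ m) (M.image σ) = (insert m M).image σ := by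
        rw [Finset.image_insert]
      have e2 : insert b (B.image σ) = (insert (σ.symm b) B).image σ := by
        rw [Finset.image_insert]; simp
      rw [e1] at hb1 ⊢
      rw [e2]
      apply ih
      · intro h'
        apply hb1
        rw [Finset.mem_image]
        exact ⟨_, h', by simp⟩
      · intro h'
        apply hb2
        rw [Finset.mem_image]
        exact ⟨_, h', by simp⟩

/-- Maker, with the stone at the origin, wins against the reply `b`. -/
def Ans (b : Cell) : Prop := MakerWins {(0, 0)} {b}

theorem Ans.tau {b : Cell} (h : Ans (tauE b)) : Ans b := by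
  have := MakerWins.map tauE (fun _ => isCopy_tau) h
  simpa [Ans, Finset.image_singleton, tauE] using this

theorem Ans.rho {b : Cell} (h : Ans (rhoE b)) : Ans b := by
  have := MakerWins.map rhoE (fun _ => isCopy_rho) h
  simpa [Ans, Finset.image_singleton, rhoE] using this

/-- It is enough to answer the replies in the octant `0 ≤ y ≤ x`, for a set `Q` of replies that is
invariant under the symmetries. -/
theorem ans_of_octant (Q : Cell → Prop) (hτ : ∀ b, Q b → Q (tauE b)) (hρ : ∀ b, Q b → Q (rhoE b))
    (h : ∀ x y : ℤ, 0 ≤ y → y ≤ x → Q (x, y) → Ans (x, y)) : ∀ b : Cell, Q b → Ans b := by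
  have step3 : ∀ x y : ℤ, 0 ≤ x → 0 ≤ y → Q (x, y) → Ans (x, y) := by
    intro x y hx hy hq
    by_cases hyx : y ≤ x
    · exact h x y hy hyx hq
    · apply Ans.tau
      exact h y x hx (by omega) (hτ _ hq)
  have step2 : ∀ x y : ℤ, 0 ≤ y → Q (x, y) → Ans (x, y) := by
    intro x y hy hq
    by_cases hx : 0 ≤ x
    · exact step3 x y hx hy hq
    · apply Ans.rho
      exact step3 (-x) y (by omega) hy (hρ _ hq)
  rintro ⟨x, y⟩ hq
  by_cases hy : 0 ≤ y
  · exact step2 x y hy hq
  · apply Ans.tau
    apply Ans.rho
    apply Ans.tau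
    exact step2 x (-y) (by omega) (hτ _ (hρ _ (hτ _ hq)))

/-- A mask `R` below `2 ^ B` whose cells all fail `Pred` contains no cell satisfying `Pred`. -/
theorem not_mem_sem_of_check {R B : ℕ} (hB : R < 2 ^ B) {Pred : Cell → Prop}
    (h : ∀ i < B, R.testBit i = true → ¬ Pred (cellOf i)) {c : Cell} (hc : Pred c) : c ∉ sem R := by
  rintro ⟨i, hi, rfl⟩
  by_cases hiB : i < B
  · exact h i hiB hi hc
  · have : R < 2 ^ i := lt_of_lt_of_le hB (Nat.pow_le_pow_right (by norm_num) (by omega))
    rw [Nat.testBit_lt_two_pow this] at hi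
    exact absurd hi (by simp)

/-- The code of the origin. -/
def originCode : ℕ := 16 + 32 * 16

theorem cellOf_origin : cellOf originCode = (0, 0) := by
  decide

theorem sem_origin : sem (2 ^ originCode) = {((0, 0) : Cell)} := by
  rw [sem_two_pow, cellOf_origin]

/-- A `PP` fact whose Maker part is at most the origin answers every reply outside `R`. -/
theorem PP.ans {M Z R : ℕ} (h : PP M Z R) (hM : sem M ⊆ {((0, 0) : Cell)}) {b : Cell}
    (hb : b ∉ sem R) (hb0 : b ≠ (0, 0)) : Ans b := by
  have := h {(0, 0)} ∅ (by simpa using hM) (by simp) b hb (by simpa using hb0) (by simp)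
  simpa [Ans] using this

end Vale.Agent.P062h5
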