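import Vale.Agent.P062h5.Machine

/-!
A second version of the checking machine, with a memory for facts that are used several times.
-/

namespace Vale.Agent.P062h5

/-- The memory: a binary tree of facts. -/
inductive Mem
  | emp
  | val (M Z R : ℕ)
  | br (l r : Mem)

/-- Every fact in the memory is valid. -/
def Mem.Inv : Mem → Prop
  | .emp => True
  | .val M Z R => PP M Z R
  | .br l r => l.Inv ∧ r.Inv

/-- Tables of stacks of facts proved earlier. -/
inductive Tab
  | nil
  | cons (s : Stk) (tl : Tab)

/-- Every fact in the table is valid. -/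
def Tab.Inv : Tab → Prop
  | .nil => True
  | .cons s tl => s.Inv ∧ tl.Inv

/-- The machine state. -/
inductive VM
  | mk (s : Stk) (m : Mem)

/-- The state is valid. -/
def VM.Inv : VM → Prop
  | .mk s m => s.Inv ∧ m.Inv

/-- Strict application for memories. -/
noncomputable def fM {α : Type} (t : Mem) (g : Mem → α) : α :=
  Mem.rec (motive := fun _ => α) (g .emp) (fun M Z R => g (.val M Z R)) (fun l r _ _ => g (.br l r)) t

theorem fM_eq {α : Type} (t : Mem) (g : Mem → α) : fM t g = g t := by
  cases t <;> rfl

/-- Splits a memory node, an absent node counting as two absent children. -/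
noncomputable def mSplit {α : Type} (t : Mem) (k : Mem → Mem → α) : α :=
  Mem.rec (motive := fun _ => α) (k .emp .emp) (fun _ _ _ => k .emp .emp) (fun l r _ _ => k l r) t

/-- Whether bit `d` of `i` is set. -/
noncomputable def bitOf (i d : ℕ) : Bool := Nat.beq (Nat.land (Nat.shiftRight i d) 1) 1

/-- Stores a fact at address `i` of a memory of depth `d`. -/
noncomputable def memSet (M Z R i d : ℕ) : Mem → Mem :=
  Nat.rec (motive := fun _ => Mem → Mem)
    (fun _ => .val M Z R)
    (fun d' ih t => mSplit t fun l r =>
      Bool.rec (motive := fun _ => Mem)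
        (fM (ih l) fun l' => .br l' r)
        (fM (ih r) fun r' => .br l r')
        (bitOf i d')) d

/-- Pushes the fact at address `i` of a memory of depth `d` on the stack. -/
noncomputable def memGet (i d : ℕ) (s : Stk) : Mem → Stk :=
  Nat.rec (motive := fun _ => Mem → Stk)
    (fun t => Mem.rec (motive := fun _ => Stk) s (fun M Z R => .cons M Z R s) (fun _ _ _ _ => s) t)
    (fun d' ih t => Mem.rec (motive := fun _ => Stk) s (fun _ _ _ => s)
      (fun l r _ _ => Bool.rec (motive := fun _ => Stk) (ih l) (ih r) (bitOf i d')) t) d

/-- Pushes entry `i` of the stack `E`. -/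
noncomputable def stkGet (i : ℕ) (s : Stk) : Stk → Stk :=
  Nat.rec (motive := fun _ => Stk → Stk)
    (fun E => Stk.rec (motive := fun _ => Stk) s (fun M Z R _ _ => .cons M Z R s) E)
    (fun _ ih E => Stk.rec (motive := fun _ => Stk) s (fun _ _ _ tl _ => ih tl) E) i

/-- Pushes entry `i` of stack `j` of the table. -/
noncomputable def tabGet (j i : ℕ) (s : Stk) : Tab → Stk :=
  Nat.rec (motive := fun _ => Tab → Stk)
    (fun T => Tab.rec (motive := fun _ => Stk) s (fun E _ _ => stkGet i s E) T)
    (fun _ ih T => Tab.rec (motive := fun _ => Stk) s (fun _ tl _ => ih tl) T) j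

/-- The keep instruction: copies the top of the stack to address `i` of the memory. -/
noncomputable def opKeep (i d : ℕ) (s : Stk) (m : Mem) : VM :=
  Stk.rec (motive := fun _ => VM) (.mk .nil m)
    (fun M Z R tl _ => .mk (.cons M Z R tl) (memSet M Z R i d m)) s

/-- Dispatch on the instruction kind. -/
noncomputable def vdisp (T : Tab) (d kind a : ℕ) (s : Stk) (m : Mem) : VM :=
  Bool.rec (motive := fun _ => VM)
    (Bool.rec (motive := fun _ => VM)
      (Bool.rec (motive := fun _ => VM)
        (Bool.rec (motive := fun _ => VM)
          (Bool.rec (motive := fun _ => VM)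
            (Bool.rec (motive := fun _ => VM)
              (.mk s m)
              (.mk (tabGet (Nat.shiftRight a 11) (Nat.land a 2047) s T) m) (Nat.beq kind 4))
            (opKeep a d s m) (Nat.beq kind 5))
          (.mk (opMerge s) m) (Nat.beq kind 1))
        (.mk (memGet a d s m) m) (Nat.beq kind 6))
      (.mk (opClose a s) m) (Nat.beq kind 2))
    (.mk (opWon (Nat.land a 7) (Nat.shiftRight a 3) s) m) (Nat.beq kind 3)

/-- One machine instruction, coded by `t`. -/
noncomputable def vstep (T : Tab) (d t : ℕ) (v : VM) : VM :=
  VM.rec (motive := fun _ => VM) (fun s m => vdisp T d (Nat.land t 7) (Nat.shiftRight t 3) s m) v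

/-- Strict application for states. -/
noncomputable def fV {α : Type} (v : VM) (g : VM → α) : α :=
  VM.rec (motive := fun _ => α) (fun s m => fS s fun s' => g (.mk s' m)) v

theorem fV_eq {α : Type} (v : VM) (g : VM → α) : fV v g = g v := by
  cases v with
  | mk s m => show fS s (fun s' => g (.mk s' m)) = g (.mk s m); rw [fS_eq]

theorem memSet_inv (M Z R i d : ℕ) (h : PP M Z R) : ∀ t : Mem, t.Inv → (memSet M Z R i d t).Inv := by
  induction d with
  | zero => intro _ _; exact h
  | succ d' ih =>
    intro t ht
    have key : ∀ l r : Mem, l.Inv → r.Inv → (Bool.rec (motive := fun _ => Mem)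
        (fM (memSet M Z R i d' l) fun l' => .br l' r)
        (fM (memSet M Z R i d' r) fun r' => .br l r')
        (bitOf i d') : Mem).Inv := by
      intro l r hl hr
      cases bitOf i d' with
      | false =>
        show (fM (memSet M Z R i d' l) fun l' => Mem.br l' r).Inv
        rw [fM_eq]
        exact ⟨ih l hl, hr⟩
      | true =>
        show (fM (memSet M Z R i d' r) fun r' => Mem.br l r').Inv
        rw [fM_eq]
        exact ⟨hl, ih r hr⟩
    cases t with
    | emp => exact key .emp .emp trivial trivial
    | val _ _ _ => exact key .emp .emp trivial trivial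
    | br l r => exact key l r ht.1 ht.2

theorem memGet_inv (i d : ℕ) {s : Stk} (hs : s.Inv) : ∀ t : Mem, t.Inv → (memGet i d s t).Inv := by
  induction d with
  | zero =>
    intro t ht
    cases t with
    | emp => exact hs
    | val M Z R => exact ⟨ht, hs⟩
    | br l r => exact hs
  | succ d' ih =>
    intro t ht
    cases t with
    | emp => exact hs
    | val M Z R => exact hs
    | br l r =>
      show (Bool.rec (motive := fun _ => Stk) (memGet i d' s l) (memGet i d' s r) (bitOf i d') : Stk).Inv
      cases bitOf i d' with
      | false => exact ih l ht.1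
      | true => exact ih r ht.2

theorem stkGet_inv (i : ℕ) {s : Stk} (hs : s.Inv) : ∀ E : Stk, E.Inv → (stkGet i s E).Inv := by
  induction i with
  | zero =>
    intro E hE
    cases E with
    | nil => exact hs
    | cons M Z R tl => exact ⟨hE.1, hs⟩
  | succ n ih =>
    intro E hE
    cases E with
    | nil => exact hs
    | cons M Z R tl => exact ih tl hE.2

theorem tabGet_inv (j i : ℕ) {s : Stk} (hs : s.Inv) : ∀ T : Tab, T.Inv → (tabGet j i s T).Inv := by
  induction j with
  | zero =>
    intro T hT
    cases T with
    | nil => exact hs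
    | cons E tl => exact stkGet_inv i hs E hT.1
  | succ n ih =>
    intro T hT
    cases T with
    | nil => exact hs
    | cons E tl => exact ih tl hT.2

theorem vstep_inv (T : Tab) (d t : ℕ) {v : VM} (hT : T.Inv) (h : v.Inv) : (vstep T d t v).Inv := by
  cases v with
  | mk s m =>
    obtain ⟨hs, hm⟩ := h
    show (vdisp T d (Nat.land t 7) (Nat.shiftRight t 3) s m).Inv
    unfold vdisp
    cases Nat.beq (Nat.land t 7) 3
    · cases Nat.beq (Nat.land t 7) 2
      · cases Nat.beq (Nat.land t 7) 6
        · cases Nat.beq (Nat.land t 7) 1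
          · cases Nat.beq (Nat.land t 7) 5
            · cases Nat.beq (Nat.land t 7) 4
              · exact ⟨hs, hm⟩
              · exact ⟨tabGet_inv _ _ hs T hT, hm⟩
            · show (opKeep _ d s m).Inv
              cases s with
              | nil => exact ⟨trivial, hm⟩
              | cons M Z R tl => exact ⟨hs, memSet_inv M Z R _ d hs.1 m hm⟩
          · exact ⟨opMerge_inv hs, hm⟩
        · exact ⟨memGet_inv _ d hs m hm, hm⟩
      · exact ⟨opClose_inv _ hs, hm⟩
    · refine ⟨opWon_inv _ _ ?_ hs, hm⟩
      have : Nat.land (Nat.shiftRight t 3) 7 ≤ 7 := Nat.and_le_right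
      omega

/-- Balanced iteration on states. -/
noncomputable def vwalk (f : ℕ → VM → VM) (j : ℕ) : ℕ → VM → VM :=
  Nat.rec (motive := fun _ => ℕ → VM → VM)
    (fun i v => f i v)
    (fun j' ih i v => fV (ih i v) fun v' => ih (Nat.add i (Nat.pow 2 j')) v') j

theorem vwalk_inv (f : ℕ → VM → VM) (hf : ∀ i v, v.Inv → (f i v).Inv) (j : ℕ) :
    ∀ i v, v.Inv → (vwalk f j i v).Inv := by
  induction j with
  | zero => exact fun i v h => hf i v h
  | succ j' ih =>
    intro i v h
    show (fV (vwalk f j' i v) fun v' => vwalk f j' (Nat.add i (Nat.pow 2 j')) v').Inv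
    rw [fV_eq]
    exact ih _ _ (ih _ _ h)

/-- Token `i` of a chunk (`24` bits per token). -/
def vtoken (ch i : ℕ) : ℕ := Nat.land (Nat.shiftRight ch (Nat.mul 24 i)) 16777215

/-- Chunk `c` of the data literal `D` (`1536` bits per chunk). -/
def vchunk (D c : ℕ) : ℕ :=
  Nat.land (Nat.shiftRight D (Nat.mul 1536 c)) (Nat.sub (Nat.pow 2 1536) 1)

/-- Runs `2^j` chunks of `D`, each of `64` tokens, on a memory of depth `d`. -/
noncomputable def vrun (T : Tab) (D j d : ℕ) : VM → VM :=
  vwalk (fun c v => vwalk (fun i v' => vstep T d (vtoken (vchunk D c) i) v') 6 0 v) j 0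

theorem vrun_inv (T : Tab) (D j d : ℕ) {v : VM} (hT : T.Inv) (h : v.Inv) : (vrun T D j d v).Inv := by
  refine vwalk_inv _ ?_ j 0 v h
  intro c v' hv'
  exact vwalk_inv _ (fun i v'' h'' => vstep_inv T d _ hT h'') 6 0 v' hv'

/-- `E` is an initial segment of the stack `s`. -/
noncomputable def prefixOf (E : Stk) : Stk → Bool :=
  Stk.rec (motive := fun _ => Stk → Bool) (fun _ => true)
    (fun M Z R _ ih s =>
      Stk.rec (motive := fun _ => Bool) false
        (fun M' Z' R' tl _ =>
          Bool.rec (motive := fun _ => Bool) false
            (Bool.rec (motive := fun _ => Bool) false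
              (Bool.rec (motive := fun _ => Bool) false (ih tl) (Nat.beq R' R))
              (Nat.beq Z' Z))
            (Nat.beq M' M)) s) E

theorem inv_of_prefixOf : ∀ (E s : Stk), s.Inv → prefixOf E s = true → E.Inv := by
  intro E
  induction E with
  | nil => intro _ _ _; trivial
  | cons M Z R tl ih =>
    intro s hs hp
    cases s with
    | nil => exact absurd hp (by simp [prefixOf])
    | cons M' Z' R' tl' =>
      have hp' : prefixOf (.cons M Z R tl) (.cons M' Z' R' tl') =
          Bool.rec (motive := fun _ => Bool) false
            (Bool.rec (motive := fun _ => Bool) false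
              (Bool.rec (motive := fun _ => Bool) false (prefixOf tl tl') (Nat.beq R' R))
              (Nat.beq Z' Z))
            (Nat.beq M' M) := rfl
      rw [hp'] at hp
      cases h1 : Nat.beq M' M with
      | false => rw [h1] at hp; exact absurd hp (by simp)
      | true =>
        rw [h1] at hp
        cases h2 : Nat.beq Z' Z with
        | false => rw [h2] at hp; exact absurd hp (by simp)
        | true =>
          rw [h2] at hp
          cases h3 : Nat.beq R' R with
          | false => rw [h3] at hp; exact absurd hp (by simp)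
          | true =>
            rw [h3] at hp
            have e1 := Nat.eq_of_beq_eq_true h1
            have e2 := Nat.eq_of_beq_eq_true h2
            have e3 := Nat.eq_of_beq_eq_true h3
            subst e1 e2 e3
            exact ⟨hs.1, ih tl' hs.2 hp⟩

/-- The stack of the state. -/
noncomputable def VM.stk (v : VM) : Stk := VM.rec (motive := fun _ => Stk) (fun s _ => s) v

/-- Soundness of a run: the data `D` proves all the facts of `E`. -/
theorem vrun_sound {T : Tab} (hT : T.Inv) (D j d : ℕ) {E : Stk}
    (h : prefixOf E (VM.stk (vrun T D j d (.mk .nil .emp))) = true) : E.Inv := by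
  have hv : (vrun T D j d (.mk .nil .emp)).Inv := vrun_inv T D j d hT ⟨trivial, trivial⟩
  generalize vrun T D j d (.mk .nil .emp) = v at hv h
  cases v with
  | mk s m => exact inv_of_prefixOf E s hv.1 h

/-- An entry whose reply set is its zone. -/
abbrev ez (M Z : ℕ) (tl : Stk) : Stk := .cons M Z Z tl

end Vale.Agent.P062h5
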